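import Mathlib

/-! The Maker-Breaker achievement game for Snaky on a board inside `ℤ × ℤ`. -/

namespace Vale.Agent.P062

/-- Cells of the square grid. -/
abbrev Cell := ℤ × ℤ

/-- The hexomino Snaky. -/
def snaky : Finset Cell := {(0, 0), (1, 0), (2, 0), (3, 0), (3, 1), (4, 1)}

/-- The action of the eight signed permutation matrices: signs `a`, `b` and an optional swap of
the coordinates. -/
def signedPerm (a b : ℤ) (swap : Bool) (c : Cell) : Cell :=
  if swap then (a * c.2, b * c.1) else (a * c.1, b * c.2)

/-- `A` is an allowed copy of Snaky: `A = t + R(S)` with `R` a signed permutation matrix. -/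
def IsCopy (A : Finset Cell) : Prop :=
  ∃ (t : Cell) (a b : ℤ) (swap : Bool), (a = 1 ∨ a = -1) ∧ (b = 1 ∨ b = -1) ∧
    A = snaky.image fun c => t + signedPerm a b swap c

/-- Maker's moves before turn `t`, most recent first, when Maker's `i`-th move is `m i`. -/
def history (m : ℕ → Cell) : ℕ → List Cell
  | 0 => []
  | t + 1 => m t :: history m t

/-- A Breaker strategy answers the list of all Maker moves so far (most recent first). -/
abbrev BreakerStrategy := List Cell → Cell

/-- Breaker's `t`-th move when Breaker follows `σ` and Maker's moves are `m`. -/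
def reply (σ : BreakerStrategy) (m : ℕ → Cell) (t : ℕ) : Cell := σ (history m (t + 1))

/-- Maker's sequence of moves is legal against `σ` on the board `Bd`: every move is a cell of the
board claimed by neither player before. -/
def MakerLegal (Bd : Set Cell) (σ : BreakerStrategy) (m : ℕ → Cell) : Prop :=
  ∀ t, m t ∈ Bd ∧ ∀ s < t, m t ≠ m s ∧ m t ≠ reply σ m s

/-- Breaker's moves are legal: every reply is a cell of the board claimed by neither player
before (Maker moves first in every turn). -/
def BreakerLegal (Bd : Set Cell) (σ : BreakerStrategy) (m : ℕ → Cell) : Prop :=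
  ∀ t, reply σ m t ∈ Bd ∧ (∀ s ≤ t, reply σ m t ≠ m s) ∧ ∀ s < t, reply σ m t ≠ reply σ m s

/-- Breaker wins the Snaky game on the (infinite) board `Bd`: some strategy always moves legally
and prevents Maker from ever owning all cells of an allowed copy. -/
def BreakerWins (Bd : Set Cell) : Prop :=
  ∃ σ : BreakerStrategy, ∀ m : ℕ → Cell, MakerLegal Bd σ m →
    BreakerLegal Bd σ m ∧ ∀ A : Finset Cell, IsCopy A → ¬ ∀ c ∈ A, ∃ t, m t = c

end Vale.Agent.P062
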