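import Vale.Agent.P062.Defs

namespace Vale.Agent.P062

open Classical in
/-- All Breaker replies (most recent first) of the pairing strategy along a Maker history. -/
noncomputable def pairReplies (Bd : Set Cell) (partner : Cell → Cell) : List Cell → List Cell
  | [] => []
  | c :: hist =>
    (if partner c ∉ c :: hist ∧ partner c ∉ pairReplies Bd partner hist then partner c
      else if h : ∃ x, x ∈ Bd ∧ x ∉ c :: hist ∧ x ∉ pairReplies Bd partner hist then h.choose
      else c) :: pairReplies Bd partner hist

/-- The pairing strategy. -/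
noncomputable def pairStrategy (Bd : Set Cell) (partner : Cell → Cell) : BreakerStrategy :=
  fun hist => (pairReplies Bd partner hist).headD (0, 0)

lemma mem_history {m : ℕ → Cell} {t : ℕ} {x : Cell} : x ∈ history m t ↔ ∃ s < t, x = m s := by
  induction t with
  | zero => simp [history]
  | succ t ih =>
    simp only [history, List.mem_cons, ih]
    constructor
    · rintro (h | ⟨s, hs, h⟩)
      · exact ⟨t, Nat.lt_succ_self t, h⟩
      · exact ⟨s, Nat.lt_succ_of_lt hs, h⟩
    · rintro ⟨s, hs, h⟩
      rcases Nat.lt_succ_iff_lt_or_eq.mp hs with h1 | h1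
      · exact Or.inr ⟨s, h1, h⟩
      · exact Or.inl (h1 ▸ h)

lemma pairReplies_succ (Bd : Set Cell) (partner : Cell → Cell) (m : ℕ → Cell) (t : ℕ) :
    pairReplies Bd partner (history m (t + 1)) =
      reply (pairStrategy Bd partner) m t :: pairReplies Bd partner (history m t) := by
  simp [reply, pairStrategy, history, pairReplies]

lemma mem_pairReplies {Bd : Set Cell} {partner : Cell → Cell} {m : ℕ → Cell} {t : ℕ} {x : Cell} :
    x ∈ pairReplies Bd partner (history m t) ↔
      ∃ s < t, x = reply (pairStrategy Bd partner) m s := by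
  induction t with
  | zero => simp [history, pairReplies]
  | succ t ih =>
    rw [pairReplies_succ, List.mem_cons, ih]
    constructor
    · rintro (h | ⟨s, hs, h⟩)
      · exact ⟨t, Nat.lt_succ_self t, h⟩
      · exact ⟨s, Nat.lt_succ_of_lt hs, h⟩
    · rintro ⟨s, hs, h⟩
      rcases Nat.lt_succ_iff_lt_or_eq.mp hs with h1 | h1
      · exact Or.inr ⟨s, h1, h⟩
      · exact Or.inl (h1 ▸ h)

open Classical in
lemma reply_eq (Bd : Set Cell) (partner : Cell → Cell) (m : ℕ → Cell) (t : ℕ) :
    reply (pairStrategy Bd partner) m t =
      if partner (m t) ∉ history m (t + 1) ∧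
          partner (m t) ∉ pairReplies Bd partner (history m t) then partner (m t)
      else if h : ∃ x, x ∈ Bd ∧ x ∉ history m (t + 1) ∧
          x ∉ pairReplies Bd partner (history m t) then h.choose
      else m t := by
  simp [reply, pairStrategy, history, pairReplies]

/-- On an infinite board, a pairing of the cells such that every allowed copy contains a pair
gives a winning strategy for Breaker. -/
theorem breakerWins_of_pairing (Bd : Set Cell) (hinf : Bd.Infinite) (partner : Cell → Cell)
    (hBd : ∀ c ∈ Bd, partner c ∈ Bd) (hinv : ∀ c, partner (partner c) = c)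
    (hcopy : ∀ A : Finset Cell, IsCopy A → (∀ c ∈ A, c ∈ Bd) →
      ∃ c ∈ A, partner c ∈ A ∧ partner c ≠ c) :
    BreakerWins Bd := by
  classical
  refine ⟨pairStrategy Bd partner, fun m hm => ?_⟩
  -- the reply is always a fresh cell of the board
  have hfresh : ∀ t, reply (pairStrategy Bd partner) m t ∈ Bd ∧
      reply (pairStrategy Bd partner) m t ∉ history m (t + 1) ∧
      reply (pairStrategy Bd partner) m t ∉ pairReplies Bd partner (history m t) := by
    intro t
    rw [reply_eq]
    split_ifs with h1 h2
    · exact ⟨hBd _ (hm t).1, h1.1, h1.2⟩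
    · exact h2.choose_spec
    · exfalso
      apply h2
      obtain ⟨x, hx, hx'⟩ := hinf.exists_notMem_finset
        ((history m (t + 1)).toFinset ∪ (pairReplies Bd partner (history m t)).toFinset)
      refine ⟨x, hx, ?_, ?_⟩
      · intro h
        exact hx' (Finset.mem_union_left _ (List.mem_toFinset.mpr h))
      · intro h
        exact hx' (Finset.mem_union_right _ (List.mem_toFinset.mpr h))
  refine ⟨fun t => ⟨(hfresh t).1, ?_, ?_⟩, ?_⟩
  · intro s hs h
    exact (hfresh t).2.1 (mem_history.mpr ⟨s, Nat.lt_succ_of_le hs, h⟩)
  · intro s hs h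
    exact (hfresh t).2.2 (mem_pairReplies.mpr ⟨s, hs, h⟩)
  · intro A hA hall
    obtain ⟨c, hc, hpc, hne⟩ := hcopy A hA (fun c hc => by
      obtain ⟨t, rfl⟩ := hall c hc
      exact (hm t).1)
    -- key: Maker cannot own both cells of a pair
    have key : ∀ s t, s < t → partner (m s) ≠ m t := by
      intro s t hst heq
      have hr := reply_eq Bd partner m s
      by_cases h1 : partner (m s) ∉ history m (s + 1) ∧
          partner (m s) ∉ pairReplies Bd partner (history m s)
      · rw [if_pos h1] at hr
        exact ((hm t).2 s hst).2 (by rw [hr, heq])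
      · rw [not_and_or, not_not, not_not] at h1
        rcases h1 with h1 | h1
        · obtain ⟨r, hr1, hr2⟩ := mem_history.mp h1
          exact ((hm t).2 r (by omega)).1 (by rw [← heq, hr2])
        · obtain ⟨r, hr1, hr2⟩ := mem_pairReplies.mp h1
          exact ((hm t).2 r (by omega)).2 (by rw [← heq, hr2])
    obtain ⟨s, hs⟩ := hall c hc
    obtain ⟨t, ht⟩ := hall _ hpc
    rcases lt_trichotomy s t with h | h | h
    · exact key s t h (by rw [hs, ht])
    · subst h
      exact hne (by rw [← ht, hs])
    · exact key t s h (by rw [ht, hinv, hs])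

end Vale.Agent.P062
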