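import Vale.Agent.P062.Pairing

namespace Vale.Agent.P062

/-- The strip of height five. -/
def strip5 : Set Cell := {c | 0 ≤ c.2 ∧ c.2 ≤ 4}

/-- A pairing of the strip of height five, of horizontal period three. -/
def partner5 (c : Cell) : Cell :=
  if c.2 = 0 ∨ c.2 = 4 then
    (if c.1 % 3 = 0 then (c.1 + 2, c.2) else if c.1 % 3 = 2 then (c.1 - 2, c.2)
      else (c.1, if c.2 = 0 then 1 else 3))
  else if c.2 = 1 ∨ c.2 = 3 then
    (if c.1 % 3 = 1 then (c.1, if c.2 = 1 then 0 else 4) else if c.1 % 3 = 2 then (c.1 + 1, c.2)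
      else (c.1 - 1, c.2))
  else if c.2 = 2 then
    (if c.1 % 3 = 1 then (c.1 + 1, c.2) else if c.1 % 3 = 2 then (c.1 - 1, c.2) else c)
  else c

lemma partner5_shift (q : ℤ) (c : Cell) :
    partner5 (c.1 + 3 * q, c.2) = ((partner5 c).1 + 3 * q, (partner5 c).2) := by
  obtain ⟨x, y⟩ := c
  have h : (x + 3 * q) % 3 = x % 3 := Int.add_mul_emod_self_left x 3 q
  simp only [partner5, h]
  split_ifs <;> simp <;> ring

lemma partner5_invol (c : Cell) : partner5 (partner5 c) = c := by
  obtain ⟨x, y⟩ := c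
  have h3 : x % 3 = 0 ∨ x % 3 = 1 ∨ x % 3 = 2 := by omega
  by_cases h0 : y = 0
  · subst h0
    rcases h3 with h | h | h
    · have : (x + 2) % 3 = 2 := by omega
      simp [partner5, h, this]
    · simp [partner5, h]
    · have : (x - 2) % 3 = 0 := by omega
      simp [partner5, h, this]
  by_cases h1 : y = 1
  · subst h1
    rcases h3 with h | h | h
    · have : (x - 1) % 3 = 2 := by omega
      simp [partner5, h, this]
    · simp [partner5, h]
    · have : (x + 1) % 3 = 0 := by omega
      simp [partner5, h, this]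
  by_cases h2 : y = 2
  · subst h2
    rcases h3 with h | h | h
    · simp [partner5, h]
    · have : (x + 1) % 3 = 2 := by omega
      simp [partner5, h, this]
    · have : (x - 1) % 3 = 1 := by omega
      simp [partner5, h, this]
  by_cases h4 : y = 3
  · subst h4
    rcases h3 with h | h | h
    · have : (x - 1) % 3 = 2 := by omega
      simp [partner5, h, this]
    · simp [partner5, h]
    · have : (x + 1) % 3 = 0 := by omega
      simp [partner5, h, this]
  by_cases h5 : y = 4
  · subst h5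
    rcases h3 with h | h | h
    · have : (x + 2) % 3 = 2 := by omega
      simp [partner5, h, this]
    · simp [partner5, h]
    · have : (x - 2) % 3 = 0 := by omega
      simp [partner5, h, this]
  simp [partner5, h0, h1, h2, h4, h5]

lemma partner5_mem (c : Cell) (hc : c ∈ strip5) : partner5 c ∈ strip5 := by
  obtain ⟨x, y⟩ := c
  simp only [strip5, Set.mem_ofPred_eq] at hc ⊢
  simp only [partner5]
  split_ifs <;> simp_all

/-- Sign from a Boolean. -/
def sgn (s : Bool) : ℤ := if s then 1 else -1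

/-- The finite check: all residues of the horizontal offset, all vertical offsets, all eight
orientations. -/
lemma finite_check : ∀ (r : Fin 3) (y : Fin 5) (sa sb sw : Bool),
    (∀ c ∈ snaky, 0 ≤ (((r : ℤ), (y : ℤ)) + signedPerm (sgn sa) (sgn sb) sw c).2 ∧
      (((r : ℤ), (y : ℤ)) + signedPerm (sgn sa) (sgn sb) sw c).2 ≤ 4) →
    ∃ c ∈ snaky, ∃ c' ∈ snaky,
      partner5 (((r : ℤ), (y : ℤ)) + signedPerm (sgn sa) (sgn sb) sw c) =
        ((r : ℤ), (y : ℤ)) + signedPerm (sgn sa) (sgn sb) sw c' ∧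
      partner5 (((r : ℤ), (y : ℤ)) + signedPerm (sgn sa) (sgn sb) sw c) ≠
        ((r : ℤ), (y : ℤ)) + signedPerm (sgn sa) (sgn sb) sw c := by
  decide

lemma strip5_infinite : strip5.Infinite := by
  have hinj : Function.Injective (fun n : ℕ => (((n : ℤ), (0 : ℤ)) : Cell)) := by
    intro a b h
    simpa using h
  refine Set.infinite_of_injective_forall_mem hinj fun n => ?_
  simp [strip5]

lemma copy_contains_pair (A : Finset Cell) (hA : IsCopy A) (hin : ∀ c ∈ A, c ∈ strip5) :
    ∃ c ∈ A, partner5 c ∈ A ∧ partner5 c ≠ c := by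
  obtain ⟨⟨x, y⟩, a, b, sw, ha, hb, rfl⟩ := hA
  -- signs as Booleans
  obtain ⟨sa, rfl⟩ : ∃ sa, a = sgn sa := by
    rcases ha with rfl | rfl
    · exact ⟨true, rfl⟩
    · exact ⟨false, rfl⟩
  obtain ⟨sb, rfl⟩ : ∃ sb, b = sgn sb := by
    rcases hb with rfl | rfl
    · exact ⟨true, rfl⟩
    · exact ⟨false, rfl⟩
  have hin' : ∀ c ∈ snaky, 0 ≤ (((x, y) : Cell) + signedPerm (sgn sa) (sgn sb) sw c).2 ∧
      (((x, y) : Cell) + signedPerm (sgn sa) (sgn sb) sw c).2 ≤ 4 := fun c hc =>
    hin _ (Finset.mem_image_of_mem _ hc)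
  have hy : 0 ≤ y ∧ y ≤ 4 := by
    have := hin' (0, 0) (by simp [snaky])
    cases sw <;> simpa [signedPerm] using this
  obtain ⟨y', rfl⟩ : ∃ y' : Fin 5, y = (y' : ℤ) :=
    ⟨⟨y.toNat, by omega⟩, by simp [hy.1]⟩
  obtain ⟨r, q, rfl⟩ : ∃ (r : Fin 3) (q : ℤ), x = (r : ℤ) + 3 * q :=
    ⟨⟨(x % 3).toNat, by omega⟩, x / 3, by
      have : (((x % 3).toNat : ℕ) : ℤ) = x % 3 := Int.toNat_of_nonneg (by omega)
      simp only [this]
      omega⟩
  have hshift : ∀ c : Cell, (((r : ℤ) + 3 * q, (y' : ℤ)) : Cell) + c =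
      (((((r : ℤ), (y' : ℤ)) : Cell) + c).1 + 3 * q, ((((r : ℤ), (y' : ℤ)) : Cell) + c).2) := by
    intro c
    ext
    · simp only [Prod.fst_add]; ring
    · simp
  obtain ⟨c, hc, c', hc', h1, h2⟩ := finite_check r y' sa sb sw (fun c hc => by
    have := hin' c hc
    rw [hshift] at this
    exact this)
  refine ⟨_, Finset.mem_image_of_mem _ hc, ?_, ?_⟩
  · rw [hshift, partner5_shift, h1, ← hshift]
    exact Finset.mem_image_of_mem _ hc'
  · rw [hshift, partner5_shift]
    intro h
    apply h2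
    have e1 := congrArg Prod.fst h
    have e2 := congrArg Prod.snd h
    simp only at e1 e2
    ext
    · linarith
    · exact e2

theorem breakerWins_strip5 : BreakerWins strip5 :=
  breakerWins_of_pairing strip5 strip5_infinite partner5 partner5_mem partner5_invol
    copy_contains_pair

end Vale.Agent.P062
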